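import Vale.Agent.P130.Spec

open MeasureTheory

namespace Vale.Agent.Results.P130.SimpleLebesgue

theorem result : ∃ (X : Type) (_ : MeasurableSpace X) (_ : StandardBorelSpace X) (μ : Measure X)
    (_ : IsProbabilityMeasure μ), (∀ x : X, μ {x} = 0) ∧ ∃ T : X ≃ᵐ X, MeasurePreserving T μ μ ∧
      ∃ (f : X → ℂ) (e : ℤ → Lp ℂ 2 μ),
        (∀ n : ℤ, (e n : X → ℂ) =ᵐ[μ] f ∘ ⇑((T.toEquiv : Equiv.Perm X) ^ n)) ∧
        Orthonormal ℂ e ∧
        ∀ g : Lp ℂ 2 μ, g ∈ (Submodule.span ℂ (Set.range e)).topologicalClosure ↔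
          ∫ x, g x ∂μ = 0 := by
  obtain ⟨μ, h1, h2, h3, e, h4, h5, h6⟩ := Vale.Agent.P130.main
  refine ⟨Vale.Agent.P130.XX, inferInstance, inferInstance, μ, h1, h2, Vale.Agent.P130.shE, h3,
    e 0, e, fun n => ?_, h5, h6⟩
  rw [show ⇑((Vale.Agent.P130.shE.toEquiv : Equiv.Perm Vale.Agent.P130.XX) ^ n) =
    Vale.Agent.P130.sh n from funext (Vale.Agent.P130.shE_zpow n)]
  exact h4 n

end Vale.Agent.Results.P130.SimpleLebesgue
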